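import Vale.Agent.Lib.P335.Assemble

/-!
The Kannan-Tetali-Vempala conjecture for simple graphs: the switch chain mixes in at most `n ^ 6` steps
for every graphical degree vector on `n ≥ 4` vertices.
-/

namespace Vale.Agent.Results.P335.A_KTV

open Vale.Agent.Lib.P335

/-- For every `n ≥ 4` and every degree vector `d` realized by a simple graph on `Fin n`, the switch chain
is within total variation distance `1/4` of the uniform law from every start after any `t ≥ n ^ 6` steps,
and so its mixing time is at most `n ^ 6`. -/
theorem result {n : ℕ} (hn : 4 ≤ n) (d : Fin n → ℕ) (hne : (Omega d).Nonempty) :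
    (∀ t, n ^ 6 ≤ t → ∀ G : State d, tv ((kernel d ^ t) G) (unif d) ≤ 1 / 4) ∧ tmix d ≤ n ^ 6 :=
  mixing_bound hn d hne

end Vale.Agent.Results.P335.A_KTV
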